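import Vale.Agent.Lib.P184.Hyp.GroupMain

/-!
# P184 / acylindrical actions on hyperbolic spaces

If `G` acts acylindrically on a Gromov hyperbolic space with approximate midpoints, every element with unbounded orbits is loxodromic and WPD.
The proof of `exists_doubling_of_acyl` is the proof of `exists_doubling_of_not_finOrder`, where uniform properness at the midpoint `m` is replaced by acylindricity at the pair `m`, `g ^ j • m`
(the powers of `g` commute with `g ^ j`, so they move both points by the same amount).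
-/

namespace Vale.Agent.Lib.P184.Hyp

open scoped BigOperators

variable {G X : Type*} [Group G] [PseudoMetricSpace X] [MulAction G X]

theorem exists_doubling_of_acyl
    (hiso : ∀ (g : G) (x y : X), dist (g • x) (g • y) = dist x y) {δ : ℝ} (hyp : IsHyp X δ) (μ : ℝ)
    (hmid : ∀ a b : X, ∃ m, dist a m ≤ dist a b / 2 + μ ∧ dist m b ≤ dist a b / 2 + μ)
    (hacyl : ∀ R : ℝ, ∃ (L : ℝ) (P : ℕ), ∀ (x y : X) (S : Finset G), L ≤ dist x y →
      (∀ h ∈ S, dist (h • x) x ≤ R ∧ dist (h • y) y ≤ R) → S.card ≤ P)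
    (g : G) (o : X) (hunb : ∀ B : ℝ, ∃ n : ℕ, B < dist o (g ^ n • o)) :
    ∃ N : ℕ, 0 < N ∧ dist o (g ^ N • o) + 3 * δ < dist o (g ^ (2 * N) • o) := by
  classical
  by_contra hcon
  push Not at hcon
  have hδ : 0 ≤ δ := hyp_nonneg hyp o
  set t : ℕ → ℝ := fun n => dist o (g ^ n • o) with ht
  have ht0 : ∀ n, 0 ≤ t n := fun n => dist_nonneg
  have htz : t 0 = 0 := by simp [ht]
  have hg : ¬ IsOfFinOrder g := by
    intro hfo
    obtain ⟨n, hn, hpow⟩ := isOfFinOrder_iff_pow_eq_one.1 hfo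
    obtain ⟨j, hj⟩ := hunb (∑ i ∈ Finset.range n, t i)
    have h1 : g ^ j = g ^ (j % n) := by
      conv_lhs => rw [← Nat.div_add_mod j n, pow_add, pow_mul, hpow, one_pow, one_mul]
    have h2 : t (j % n) ≤ ∑ i ∈ Finset.range n, t i :=
      Finset.single_le_sum (f := t) (fun i _ => ht0 i) (Finset.mem_range.2 (Nat.mod_lt _ hn))
    have h3 : dist o (g ^ j • o) = t (j % n) := by rw [h1]
    linarith
  have hinj : Function.Injective (fun i : ℕ => g ^ i) := injective_pow_iff_not_isOfFinOrder.2 hg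
  -- distances in the orbit
  have hF1 : ∀ i k : ℕ, dist (g ^ i • o) (g ^ (i + k) • o) = t k := by
    intro i k
    rw [pow_add, mul_smul, hiso]
  have hF2 : ∀ a b : ℕ, t (a + b) ≤ t a + t b := by
    intro a b
    have h := dist_triangle o (g ^ a • o) (g ^ (a + b) • o)
    rw [hF1] at h
    exact h
  have hdbl : ∀ a : ℕ, t (2 * a) ≤ t a + 3 * δ := by
    intro a
    rcases Nat.eq_zero_or_pos a with rfl | ha
    · simp only [Nat.mul_zero, htz]; linarith
    · exact hcon a ha
  set c₁ : ℝ := t 1 + 3 * δ with hc₁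
  have hc₁0 : 0 ≤ c₁ := by have := ht0 1; rw [hc₁]; linarith
  set C : ℝ := c₁ + 2 * μ + 4 * δ with hC
  obtain ⟨L, P, hP⟩ := hacyl C
  -- main claim
  have hmain : ∀ J n : ℕ, n ≤ J → (∀ j ≤ J, t j ≤ t n) → n + 1 ≤ P := by
    intro J n hnJ hmax
    set T : ℝ := t n with hT
    have hi : ∀ j ≤ 2 * J, t j ≤ T + c₁ := by
      intro j hj
      have ha : j / 2 ≤ J := by omega
      have h1 := hdbl (j / 2)
      have h2 := hmax (j / 2) ha
      rcases Nat.even_or_odd' j with ⟨a, rfl | rfl⟩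
      · have : 2 * a / 2 = a := by omega
        rw [this] at h1 h2
        have := ht0 1
        rw [hc₁]; linarith
      · have : (2 * a + 1) / 2 = a := by omega
        rw [this] at h1 h2
        have h3 := hF2 (2 * a) 1
        rw [hc₁]; linarith
    obtain ⟨m, hm1, hm2⟩ := hmid o (g ^ n • o)
    have hTd : dist o (g ^ n • o) = T := rfl
    rw [hTd] at hm1 hm2
    have hclose : ∀ i ≤ n, dist (g ^ i • m) m ≤ C := by
      intro i hin
      have hab' : dist (g ^ i • o) (g ^ (i + n) • o) = T := hF1 i n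
      have hbeq : g ^ (i + n) • o = g ^ i • g ^ n • o := by rw [pow_add, mul_smul]
      have h1' : dist (g ^ i • o) (g ^ i • m) ≤ dist (g ^ i • o) (g ^ (i + n) • o) / 2 + μ := by
        rw [hab', hiso]; exact hm1
      have h2' : dist (g ^ i • m) (g ^ (i + n) • o) ≤ dist (g ^ i • o) (g ^ (i + n) • o) / 2 + μ := by
        rw [hab', hbeq, hiso]; exact hm2
      have hA := dist_mid_le hyp _ _ _ μ h1' h2' o
      have hB := dist_mid_le hyp _ _ _ μ h1' h2' (g ^ n • o)
      rw [hab'] at hA hB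
      have e1 : dist o (g ^ i • o) ≤ T := hmax i (le_trans hin hnJ)
      have e2 : dist o (g ^ (i + n) • o) ≤ T + c₁ := hi (i + n) (by omega)
      have e3 : dist (g ^ n • o) (g ^ i • o) ≤ T := by
        obtain ⟨k, rfl⟩ := Nat.exists_eq_add_of_le hin
        rw [dist_comm, hF1]
        exact hmax k (by omega)
      have e4 : dist (g ^ n • o) (g ^ (i + n) • o) ≤ T := by
        rw [add_comm i n, hF1]
        exact hmax i (le_trans hin hnJ)
      have hA' : dist o (g ^ i • m) ≤ T / 2 + c₁ + μ + 2 * δ := by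
        have : max (dist o (g ^ i • o)) (dist o (g ^ (i + n) • o)) ≤ T + c₁ :=
          max_le (by linarith) e2
        linarith
      have hB' : dist (g ^ n • o) (g ^ i • m) ≤ T / 2 + μ + 2 * δ := by
        have : max (dist (g ^ n • o) (g ^ i • o)) (dist (g ^ n • o) (g ^ (i + n) • o)) ≤ T :=
          max_le e3 e4
        linarith
      have hm1' : dist o m ≤ dist o (g ^ n • o) / 2 + μ := by rw [hTd]; exact hm1
      have hm2' : dist m (g ^ n • o) ≤ dist o (g ^ n • o) / 2 + μ := by rw [hTd]; exact hm2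
      have hCC := dist_mid_le hyp _ _ _ μ hm1' hm2' (g ^ i • m)
      rw [hTd] at hCC
      have : max (dist (g ^ i • m) o) (dist (g ^ i • m) (g ^ n • o)) ≤ T / 2 + c₁ + μ + 2 * δ := by
        apply max_le
        · rw [dist_comm]; exact hA'
        · rw [dist_comm]; linarith
      rw [hC]; linarith
    obtain ⟨j, hj⟩ := hunb (L + 2 * dist o m)
    have hfar : L ≤ dist m (g ^ j • m) := by
      have h1 := dist_triangle4 o m (g ^ j • m) (g ^ j • o)
      rw [hiso, dist_comm m o] at h1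
      linarith
    have hcard := hP m (g ^ j • m) ((Finset.range (n + 1)).image (fun i : ℕ => g ^ i)) hfar (by
      intro h hh
      obtain ⟨i, hi', rfl⟩ := Finset.mem_image.1 hh
      have hc := hclose i (by have := Finset.mem_range.1 hi'; omega)
      refine ⟨hc, ?_⟩
      rw [← mul_smul, ← pow_add, add_comm, pow_add, mul_smul, hiso]
      exact hc)
    rw [Finset.card_image_of_injective _ hinj, Finset.card_range] at hcard
    exact hcard
  -- uniform bound on `t`
  set Tinf : ℝ := ∑ n ∈ Finset.range P, t n with hTinf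
  have hbound : ∀ j, t j ≤ Tinf := by
    intro j
    obtain ⟨n, hn, hmax⟩ := Finset.exists_max_image (Finset.range (j + 1)) t ⟨0, by simp⟩
    have hnj : n ≤ j := by have := Finset.mem_range.1 hn; omega
    have hnP := hmain j n hnj (fun i hi => hmax i (Finset.mem_range.2 (by omega)))
    have h1 : t j ≤ t n := hmax j (Finset.mem_range.2 (by omega))
    have h2 : t n ≤ Tinf :=
      Finset.single_le_sum (f := t) (fun i _ => ht0 i) (Finset.mem_range.2 (by omega))
    linarith
  obtain ⟨j, hj⟩ := hunb Tinf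
  have := hbound j
  linarith

theorem escape_of_doubling (hiso : ∀ (g : G) (x y : X), dist (g • x) (g • y) = dist x y)
    {δ : ℝ} (hyp : IsHyp X δ) (g : G) (o : X) (N : ℕ) (hN : 0 < N)
    (hd : dist o (g ^ N • o) + 3 * δ < dist o (g ^ (2 * N) • o)) :
    ∃ c : ℝ, 0 < c ∧ ∀ n : ℕ, c * n ≤ dist o (g ^ n • o) := by
  obtain ⟨c₁, c₂, hc₁, hlin⟩ := linear_growth_of_doubling hiso hyp g o N hN hd
  refine exists_linear_of_affine (fun n => dist o (g ^ n • o)) c₁ c₂ hc₁ hlin ?_ dist_nonneg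
  intro n hn
  rcases (dist_nonneg (x := o) (y := g ^ n • o)).lt_or_eq with h | h
  · exact h
  · exfalso
    have hz : ∀ k : ℕ, dist o (g ^ (n * k) • o) = 0 := by
      intro k
      induction k with
      | zero => simp
      | succ k ih =>
        have h1 := dist_triangle o (g ^ n • o) (g ^ (n * (k + 1)) • o)
        have h2 : g ^ (n * (k + 1)) • o = g ^ n • g ^ (n * k) • o := by
          rw [← mul_smul, ← pow_add]
          congr 2
          ring
        rw [h2, hiso, ih, ← h] at h1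
        rw [h2]
        exact le_antisymm (by linarith) dist_nonneg
    obtain ⟨k, hk⟩ := exists_nat_gt (c₂ / c₁)
    have h3 := hlin (n * k)
    rw [hz k] at h3
    rw [div_lt_iff₀ hc₁] at hk
    have hn1 : (1 : ℝ) ≤ n := by exact_mod_cast hn
    have hk0 : (0 : ℝ) ≤ k := Nat.cast_nonneg k
    push_cast at h3
    have h4 : c₁ * (k : ℝ) ≤ c₁ * ((n : ℝ) * k) := by
      apply mul_le_mul_of_nonneg_left _ hc₁.le
      nlinarith
    linarith

/-- acylindricity gives the WPD condition for elements with unbounded orbits -/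
theorem wpd_of_acyl
    (hacyl : ∀ R : ℝ, ∃ (L : ℝ) (P : ℕ), ∀ (x y : X) (S : Finset G), L ≤ dist x y →
      (∀ h ∈ S, dist (h • x) x ≤ R ∧ dist (h • y) y ≤ R) → S.card ≤ P)
    (g : G) (o : X) (hunb : ∀ B : ℝ, ∃ n : ℕ, B < dist o (g ^ n • o)) (R : ℝ) :
    ∃ N : ℕ, {h : G | dist o (h • o) ≤ R ∧ dist (g ^ N • o) (h • g ^ N • o) ≤ R}.Finite := by
  obtain ⟨L, P, hP⟩ := hacyl R
  obtain ⟨N, hN⟩ := hunb L
  refine ⟨N, ?_⟩
  by_contra hinf
  obtain ⟨S, hS, hcard⟩ := Set.Infinite.exists_subset_card_eq hinf (P + 1)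
  have := hP o (g ^ N • o) S hN.le (by
    intro h hh
    obtain ⟨h1, h2⟩ := hS hh
    exact ⟨by rw [dist_comm]; exact h1, by rw [dist_comm]; exact h2⟩)
  omega

theorem acyl_main {q : ℕ} (e : Matrix (Fin q) (Fin q) (G → ℂ))
    (hsum : ∀ i j, Summable fun g => ‖e i j g‖)
    (hidem : ∀ i j g, ∑ k, ∑' h, e i k h * e k j (h⁻¹ * g) = e i j g)
    (hiso : ∀ (g : G) (x y : X), dist (g • x) (g • y) = dist x y) {δ : ℝ} (hyp : IsHyp X δ) (μ : ℝ)
    (hmid : ∀ a b : X, ∃ m, dist a m ≤ dist a b / 2 + μ ∧ dist m b ≤ dist a b / 2 + μ)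
    (hacyl : ∀ R : ℝ, ∃ (L : ℝ) (P : ℕ), ∀ (x y : X) (S : Finset G), L ≤ dist x y →
      (∀ h ∈ S, dist (h • x) x ≤ R ∧ dist (h • y) y ≤ R) → S.card ≤ P)
    (g : G) (o : X) (hunb : ∀ B : ℝ, ∃ n : ℕ, B < dist o (g ^ n • o)) :
    (∃ c : ℝ, 0 < c ∧ ∀ n : ℕ, c * n ≤ dist o (g ^ n • o)) ∧
      (Subgroup.zpowers g).relIndex (Subgroup.centralizer {g}) ≠ 0 ∧
      ∑' x : (ConjClasses.mk g).carrier, ∑ i, e i i x = 0 := by
  obtain ⟨N, hN, hd⟩ := exists_doubling_of_acyl hiso hyp μ hmid hacyl g o hunb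
  obtain ⟨c, hc0, hc⟩ := escape_of_doubling hiso hyp g o N hN hd
  exact ⟨⟨c, hc0, hc⟩, relIndex_ne_zero_of_wpd hiso hyp g o c hc0 hc (wpd_of_acyl hacyl g o hunb),
    trace_vanish_of_wpd e hsum hidem hiso hyp g o c hc0 hc (wpd_of_acyl hacyl g o hunb)⟩

end Vale.Agent.Lib.P184.Hyp
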