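import Mathlib

/-!
# P184 / hyperbolic spaces, modules W2, W4, W7: three elementary lemmas (no geometry)

FROZEN STATEMENTS (do not change them; fill the sorries).

ROUTE.
* `exists_doubling`: otherwise `t (2 * N) ≤ t N + K` for all `N > 0`, so `t (2 ^ k) ≤ t 1 + k * |K|` by induction, while `t (2 ^ k) ≥ c * 2 ^ k`; but `c * 2 ^ k - k * |K|` is unbounded (`2 ^ k ≥ k ^ 2` for `k ≥ 4`, or
  `k * (k - 1) / 2 ≤ 2 ^ k`, or `tendsto_pow_const_div_const_pow_of_one_lt`; or Bernoulli twice).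
* `discrete_ivt`: induction on `n`, or take the largest `k ≤ n` with `f k ≤ s` (`Nat.findGreatest`).
* `relIndex_ne_zero_of_cover`: `Z := Subgroup.centralizer {g}`, `P := (Subgroup.zpowers g).subgroupOf Z`; `relIndex = P.index`.  The map `Φ' := {z : Z | (z : G) ∈ Φ} → Z ⧸ P` is onto: for `z : Z` take `k` with `z * g ^ k ∈ Φ`;
  `z * g ^ k ∈ Z` and it is in the same left coset as `z` (`QuotientGroup.eq`: `z⁻¹ * (z * g ^ k) = g ^ k ∈ P`).  So `Z ⧸ P` is finite (`Finite.of_surjective`), and `Subgroup.index_ne_zero_of_finite`.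
  (`Subgroup.mem_centralizer_singleton_iff` / `Subgroup.mem_centralizer_iff` relate membership in `Z` and `Commute`.)
-/

namespace Vale.Agent.Lib.P184.Hyp

theorem exists_doubling (t : ℕ → ℝ) (c : ℝ) (hc : 0 < c) (ht : ∀ n : ℕ, c * n ≤ t n) (K : ℝ) :
    ∃ N : ℕ, 0 < N ∧ t N + K < t (2 * N) := by
  by_contra hcon
  push Not at hcon
  have h1 : ∀ k : ℕ, t (2 ^ k) ≤ t 1 + k * K := by
    intro k
    induction k with
    | zero => simp
    | succ k ih =>
      have := hcon (2 ^ k) (by positivity)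
      rw [pow_succ, mul_comm]
      push_cast
      linarith
  obtain ⟨j, hj⟩ := exists_nat_gt ((|t 1| + 2 * |K|) / c + 1)
  have hj1 : (1 : ℝ) < j := by
    have : 0 ≤ (|t 1| + 2 * |K|) / c := by positivity
    linarith
  have hj2 : |t 1| + 2 * |K| < c * j := by
    have : (|t 1| + 2 * |K|) / c < j := by linarith
    rw [div_lt_iff₀ hc] at this
    linarith
  have h2 := h1 (2 * j)
  have h3 := ht (2 ^ (2 * j))
  have h4 : (j : ℝ) < 2 ^ j := by exact_mod_cast Nat.lt_two_pow_self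
  have h5 : ((2 ^ (2 * j) : ℕ) : ℝ) = (2 ^ j : ℝ) ^ 2 := by
    push_cast
    rw [← pow_mul, mul_comm]
  rw [h5] at h3
  have h6 : (j : ℝ) ^ 2 ≤ (2 ^ j : ℝ) ^ 2 := by
    apply pow_le_pow_left₀ (by positivity) h4.le
  have h7 : t 1 ≤ |t 1| := le_abs_self _
  have h8 : K ≤ |K| := le_abs_self _
  have h9 : 0 ≤ |t 1| := abs_nonneg _
  have h10 : 0 ≤ |K| := abs_nonneg _
  push_cast at h2
  have h11 : c * (j : ℝ) ^ 2 ≤ |t 1| + 2 * j * |K| := by
    have : c * (j : ℝ) ^ 2 ≤ c * (2 ^ j : ℝ) ^ 2 := mul_le_mul_of_nonneg_left h6 hc.le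
    have : 2 * (j : ℝ) * K ≤ 2 * j * |K| := by nlinarith
    linarith
  nlinarith

theorem discrete_ivt (f : ℕ → ℝ) (B s : ℝ) (h0 : f 0 ≤ s) (hstep : ∀ k, f (k + 1) ≤ f k + B)
    (n : ℕ) : ∃ k ≤ n, f k ≤ s ∧ (s ≤ f k + B ∨ k = n) := by
  induction n with
  | zero => exact ⟨0, le_refl _, h0, Or.inr rfl⟩
  | succ n ih =>
    obtain ⟨k, hk, hfk, h | h⟩ := ih
    · exact ⟨k, Nat.le_succ_of_le hk, hfk, Or.inl h⟩
    · subst h
      by_cases hs : f (k + 1) ≤ s
      · exact ⟨k + 1, le_refl _, hs, Or.inr rfl⟩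
      · push Not at hs
        exact ⟨k, Nat.le_succ k, hfk, Or.inl (by have := hstep k; linarith)⟩

theorem relIndex_ne_zero_of_cover {G : Type*} [Group G] (g : G) (Φ : Set G) (hΦ : Φ.Finite)
    (h : ∀ z, Commute z g → ∃ k : ℤ, z * g ^ k ∈ Φ) :
    (Subgroup.zpowers g).relIndex (Subgroup.centralizer {g}) ≠ 0 := by
  classical
  set Z := Subgroup.centralizer ({g} : Set G) with hZ
  set P := (Subgroup.zpowers g).subgroupOf Z with hP
  have hcomm : ∀ z : G, z ∈ Z ↔ Commute z g := by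
    intro z
    rw [hZ, Subgroup.mem_centralizer_singleton_iff]
    constructor
    · intro h1; exact h1
    · intro h1; exact h1
  have hgZ : ∀ k : ℤ, g ^ k ∈ Z := by
    intro k
    rw [hcomm]
    exact (Commute.refl g).zpow_left k
  have hfin : Finite {z : Z // (z : G) ∈ Φ} := by
    have : Finite Φ := hΦ
    refine Finite.of_injective (fun z : {z : Z // (z : G) ∈ Φ} => (⟨(z.1 : G), z.2⟩ : Φ)) ?_
    intro a b hab
    have : ((a.1 : Z) : G) = ((b.1 : Z) : G) := congrArg (fun x : Φ => (x : G)) hab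
    exact Subtype.ext (Subtype.ext this)
  have hsurj : Function.Surjective
      (fun z : {z : Z // (z : G) ∈ Φ} => (QuotientGroup.mk z.1 : Z ⧸ P)) := by
    intro q
    obtain ⟨z, rfl⟩ := QuotientGroup.mk_surjective q
    obtain ⟨k, hk⟩ := h z ((hcomm z).1 z.2)
    refine ⟨⟨⟨(z : G) * g ^ k, Z.mul_mem z.2 (hgZ k)⟩, hk⟩, ?_⟩
    rw [QuotientGroup.eq]
    rw [hP, Subgroup.mem_subgroupOf]
    simp only [Subgroup.coe_mul, Subgroup.coe_inv]
    rw [mul_inv_rev, mul_assoc, inv_mul_cancel, mul_one]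
    exact (Subgroup.zpowers g).inv_mem (Subgroup.zpow_mem_zpowers g k)
  have : Finite (Z ⧸ P) := Finite.of_surjective _ hsurj
  exact Subgroup.index_ne_zero_of_finite

end Vale.Agent.Lib.P184.Hyp
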