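import Vale.Agent.Lib.P184.Hyp.Gp
import Vale.Agent.Lib.P184.Hyp.Elem

/-!
# P184 / hyperbolic spaces, module W6: elements commuting with `γ` move the base point to within a uniform distance of the orbit of `γ`

FROZEN STATEMENT (do not change it; fill the sorry).

ROUTE.  `x i := γ ^ i • o` (`i : ℤ`), `A := gp (γ⁻¹ • o) (γ • o) o`, `B := dist o (γ • o)`, `K := A + 2 δ`, `κ := max B (2 K + 4 δ) + 2 (K + 2 δ) + 2 δ`.
By equivariance (`hiso`, `gp` is invariant) `gp (x (i-1)) (x (i+1)) (x i) = A` and `dist (x i) (x (i+1)) = B`; so `chain_mid` gives `gp (x i) (x k) (x j) ≤ K` for `i < j < k`.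
Let `z` commute with `γ`, `p := z • o`, `D := dist o p`.  Then `dist (x i) (z • x i) = D` for all `i` (`z • γ ^ i • o = γ ^ i • z • o`).
Choose `M : ℕ`, `M > 0`, with `dist o (γ ^ M • o) > K + 2 δ + D` (`hinf`); also `dist o (x (-M)) = dist o (x M)`.
`a := x (-M)`, `b := x M`, `a' := z • a`, `b' := z • b`: `gp a' b' p = gp a b o ≤ K`, `dist p a' = dist o a`, so `transfer` gives `gp a b p ≤ K + 2 δ`.
`discrete_ivt` for `f k := dist a (x (-M + k))`, `s := dist a p`, `n := 2 M` gives `k ≤ 2 M` with `f k ≤ s` and (`s ≤ f k + B` or `k = 2 M`); in the second case `s ≤ dist a b + 2 (K + 2 δ)` because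
`gp a b p ≤ K + 2 δ` and `dist b p ≥ 0`.  So `|dist a p - dist a v| ≤ max B (2 K + 4 δ)` for `v := x (-M + k)`.
`gp a b v ≤ K ≤ K + 2 δ`: by `chain_mid` if `0 < k < 2 M`; if `v = a` or `v = b` the product is `0` (`gp a b a = 0`) and `K ≥ 0` (`gp_nonneg`, `hyp_nonneg`).
`close_of_gp` (with `K + 2 δ`) gives `dist p v ≤ κ`.
-/

namespace Vale.Agent.Lib.P184.Hyp

theorem exists_uniform_close {G X : Type*} [Group G] [PseudoMetricSpace X] [MulAction G X]
    (hiso : ∀ (g : G) (x y : X), dist (g • x) (g • y) = dist x y) {δ : ℝ} (hyp : IsHyp X δ) (γ : G)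
    (o : X) (hAB : 2 * gp (γ⁻¹ • o) (γ • o) o + 3 * δ < dist o (γ • o))
    (hinf : ∀ R : ℝ, ∃ M : ℕ, 0 < M ∧ R < dist o (γ ^ M • o)) :
    ∃ κ : ℝ, ∀ z : G, Commute z γ → ∃ k : ℤ, dist (z • o) (γ ^ k • o) ≤ κ := by
  have hgp : ∀ (g : G) (a b c : X), gp (g • a) (g • b) (g • c) = gp a b c := by
    intro g a b c
    unfold gp
    rw [hiso, hiso, hiso]
  have hδ : 0 ≤ δ := hyp_nonneg hyp o
  set x : ℤ → X := fun i => γ ^ i • o with hx
  set A : ℝ := gp (γ⁻¹ • o) (γ • o) o with hAdef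
  set B : ℝ := dist o (γ • o) with hBdef
  have hA0 : 0 ≤ A := gp_nonneg _ _ _
  set K : ℝ := A + 2 * δ with hK
  have hK0 : 0 ≤ K := by rw [hK]; linarith
  have hxm : ∀ i : ℤ, x (i - 1) = γ ^ i • (γ⁻¹ • o) := by
    intro i
    simp only [hx]
    rw [zpow_sub_one, mul_smul]
  have hxp : ∀ i : ℤ, x (i + 1) = γ ^ i • (γ • o) := by
    intro i
    simp only [hx]
    rw [zpow_add_one, mul_smul]
  have hA : ∀ i, gp (x (i - 1)) (x (i + 1)) (x i) ≤ A := by
    intro i
    rw [hxm, hxp]
    simp only [hx]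
    rw [hgp]
  have hBeq : ∀ i, dist (x i) (x (i + 1)) = B := by
    intro i
    rw [hxp]
    simp only [hx]
    rw [hiso]
  have hB : ∀ i, B ≤ dist (x i) (x (i + 1)) := fun i => (hBeq i).ge
  have hmid : ∀ i j k : ℤ, i < j → j < k → gp (x i) (x k) (x j) ≤ K :=
    fun i j k hij hjk => chain_mid hyp x A B hA hB hAB i j k hij hjk
  have hx0 : x 0 = o := by simp [hx]
  refine ⟨max B (2 * K + 4 * δ) + 2 * (K + 2 * δ) + 2 * δ, ?_⟩
  intro z hz
  set p : X := z • o with hp
  set D : ℝ := dist o p with hD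
  have hzx : ∀ i : ℤ, z • x i = γ ^ i • p := by
    intro i
    simp only [hx, hp]
    rw [← mul_smul, ← mul_smul, (hz.zpow_right i).eq]
  have hdz : ∀ i : ℤ, dist (x i) (z • x i) = D := by
    intro i
    rw [hzx]
    simp only [hx]
    rw [hiso]
  obtain ⟨M, hM0, hM⟩ := hinf (K + 2 * δ + D)
  have hMZ : (0 : ℤ) < (M : ℤ) := by exact_mod_cast hM0
  have hxM : x (M : ℤ) = γ ^ M • o := by simp [hx]
  have hob : dist o (x (M : ℤ)) = dist o (γ ^ M • o) := by rw [hxM]
  have hoa : dist o (x (-(M : ℤ))) = dist o (γ ^ M • o) := by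
    have h1 : dist (γ ^ (M : ℤ) • o) (γ ^ (M : ℤ) • x (-(M : ℤ))) = dist o (x (-(M : ℤ))) := hiso _ _ _
    have h2 : γ ^ (M : ℤ) • x (-(M : ℤ)) = o := by
      simp only [hx]
      rw [← mul_smul, ← zpow_add]
      simp
    rw [h2, zpow_natCast, dist_comm] at h1
    exact h1.symm
  set a : X := x (-(M : ℤ)) with ha
  set b : X := x (M : ℤ) with hb
  have h1 : gp (z • a) (z • b) p ≤ K := by
    rw [hp, hgp, ← hx0]
    exact hmid _ _ _ (by omega) hMZ
  have h2 : gp a b p ≤ K + 2 * δ := by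
    refine transfer hyp p a b (z • a) (z • b) K D h1 (hdz _).le (hdz _).le ?_ ?_
    · rw [hp, hiso, hoa]; exact hM
    · rw [hp, hiso, hob]; exact hM
  obtain ⟨k, hk, hfk, hor⟩ := discrete_ivt (fun k : ℕ => dist a (x (-(M : ℤ) + k))) B (dist a p)
    (by simp [ha]) (by
      intro k
      have h3 := dist_triangle a (x (-(M : ℤ) + k)) (x (-(M : ℤ) + k + 1))
      rw [hBeq] at h3
      have h4 : (-(M : ℤ) + ((k + 1 : ℕ) : ℤ)) = -(M : ℤ) + k + 1 := by push_cast; ring
      simp only [h4]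
      exact h3) (2 * M)

  set v : X := x (-(M : ℤ) + k) with hv
  have hL : |dist a p - dist a v| ≤ max B (2 * K + 4 * δ) := by
    rw [abs_of_nonneg (by linarith)]
    rcases hor with h | h
    · exact le_trans (by linarith) (le_max_left _ _)
    · have hvb : v = b := by
        rw [hv, hb, h]
        congr 1
        push_cast
        ring
      rw [hvb]
      refine le_trans ?_ (le_max_right _ _)
      have h5 : gp a b p = (dist a p + dist b p - dist a b) / 2 := rfl
      have h6 : 0 ≤ dist b p := dist_nonneg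
      rw [h5] at h2
      linarith
  have hgv : gp a b v ≤ K + 2 * δ := by
    rcases Nat.eq_zero_or_pos k with h0 | h0
    · have hva : v = a := by
        rw [hv, ha, h0]
        simp
      rw [hva]
      unfold gp
      rw [dist_self, dist_comm b a]
      linarith
    · rcases Nat.lt_or_ge k (2 * M) with h3 | h3
      · have := hmid (-(M : ℤ)) (-(M : ℤ) + k) (M : ℤ) (by omega) (by omega)
        linarith
      · have hk2 : k = 2 * M := le_antisymm hk h3
        have hvb : v = b := by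
          rw [hv, hb, hk2]
          congr 1
          push_cast
          ring
        rw [hvb]
        unfold gp
        rw [dist_self]
        linarith
  exact ⟨-(M : ℤ) + k, close_of_gp hyp a b p v (K + 2 * δ) _ h2 hgv hL⟩

end Vale.Agent.Lib.P184.Hyp
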