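import Mathlib

/-!
# P184 / hyperbolic spaces, modules W0, W1, W3, W5: Gromov products, chains, transfer, closeness

FROZEN STATEMENTS (do not change them; fill the sorries).  Everything is `linarith`-level metric geometry.

`IsHyp X δ` is the four point condition.  `gp x y w = (x|y)_w`.

ROUTE.
* `gp_hyp`: unfold; `hyp x y z w`; split the `max` and the `min` (`le_max_iff`, `min_le_iff`, or `rcases le_total`).
* `chain_right`: induction on `n`.  `n = 0`: `hA (i + 1)` (rewrite the indices with `ring_nf`/`show`).  Step: put `j = i + n + 1`.  IH: `gp (x i) (x (j+1)) (x j) ≤ A + δ`.  By `gp_add`,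
  `gp (x i) (x j) (x (j+1)) = dist (x (j+1)) (x j) - gp (x i) (x (j+1)) (x j) ≥ B - A - δ`.  `gp_hyp` with base `x (j+1)` and the points `x j, x i, x (j+2)`:
  `min (gp (x j) (x i) (x (j+1))) (gp (x i) (x (j+2)) (x (j+1))) - δ ≤ gp (x j) (x (j+2)) (x (j+1)) ≤ A`.  The first entry of the `min` is `> A + δ`, so the second is `≤ A + δ`.  (`gp_comm`.)
* `chain_left`: apply `chain_right` to `fun i => x (-i)`.
* `chain_mid`: write `j = i + a + 1`, `k = j + b + 1`.  `chain_left` gives `gp (x (j-1)) (x k) (x j) ≤ A + δ`.  If `a = 0` done.  Otherwise `chain_right` gives `gp (x i) (x j) (x (j-1)) ≤ A + δ`, so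
  `gp (x i) (x (j-1)) (x j) ≥ B - A - δ > A + 2 δ`; `gp_hyp` with base `x j` and the points `x (j-1), x i, x k` gives `gp (x i) (x k) (x j) ≤ A + 2 δ`.
* `transfer`: `gp b b' p ≥ dist p b' - D > K + 2 δ`; `gp_hyp` (points `a', b, b'`) gives `gp a' b p ≤ K + δ`; `gp a a' p > K + 2 δ`; `gp_hyp` (points `a', a, b`) gives `gp a b p ≤ K + 2 δ`.
* `close_of_gp`: `hyp u x v y`, and `dist u y = dist x y - dist x u + 2 * gp x y u`, same for `v`.
-/

namespace Vale.Agent.Lib.P184.Hyp

variable {X : Type*} [PseudoMetricSpace X]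

/-- the four point condition -/
def IsHyp (X : Type*) [PseudoMetricSpace X] (δ : ℝ) : Prop :=
  ∀ x y z w : X, dist x z + dist y w ≤ max (dist x y + dist z w) (dist x w + dist y z) + 2 * δ

/-- the Gromov product `(x|y)_w` -/
noncomputable def gp (x y w : X) : ℝ := (dist x w + dist y w - dist x y) / 2

theorem gp_comm (x y w : X) : gp x y w = gp y x w := by
  unfold gp; rw [dist_comm x y]; ring

theorem gp_nonneg (x y w : X) : 0 ≤ gp x y w := by
  unfold gp
  have := dist_triangle x w y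
  rw [dist_comm w y] at this
  linarith

theorem gp_add (u v w : X) : gp u v w + gp u w v = dist v w := by
  unfold gp; rw [dist_comm w v]; ring

theorem hyp_nonneg {δ : ℝ} (hyp : IsHyp X δ) (o : X) : 0 ≤ δ := by
  have := hyp o o o o
  simp at this
  linarith

theorem gp_hyp {δ : ℝ} (hyp : IsHyp X δ) (x y z w : X) :
    min (gp x y w) (gp y z w) - δ ≤ gp x z w := by
  have h := hyp x y z w
  unfold gp
  rcases le_total (dist x y + dist z w) (dist x w + dist y z) with h1 | h1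
  · rw [max_eq_right h1] at h
    have h2 := min_le_right ((dist x w + dist y w - dist x y) / 2)
      ((dist y w + dist z w - dist y z) / 2)
    linarith
  · rw [max_eq_left h1] at h
    have h2 := min_le_left ((dist x w + dist y w - dist x y) / 2)
      ((dist y w + dist z w - dist y z) / 2)
    linarith

theorem chain_right {δ : ℝ} (hyp : IsHyp X δ) (x : ℤ → X) (A B : ℝ)
    (hA : ∀ i, gp (x (i - 1)) (x (i + 1)) (x i) ≤ A) (hB : ∀ i, B ≤ dist (x i) (x (i + 1)))
    (hAB : 2 * A + 3 * δ < B) (i : ℤ) (n : ℕ) :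
    gp (x i) (x (i + n + 2)) (x (i + n + 1)) ≤ A + δ := by
  have hδ : 0 ≤ δ := hyp_nonneg hyp (x 0)
  induction n with
  | zero =>
    have h := hA (i + 1)
    have e1 : i + 1 - 1 = i := by ring
    have e2 : i + ((0 : ℕ) : ℤ) + 2 = i + 1 + 1 := by push_cast; ring
    have e3 : i + ((0 : ℕ) : ℤ) + 1 = i + 1 := by push_cast; ring
    rw [e1] at h
    rw [e2, e3]
    linarith
  | succ n ih =>
    obtain ⟨j, hj⟩ : ∃ j : ℤ, j = i + n + 1 := ⟨_, rfl⟩
    have e1 : i + (n : ℤ) + 2 = j + 1 := by rw [hj]; ring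
    have e2 : i + ((n + 1 : ℕ) : ℤ) + 2 = j + 1 + 1 := by rw [hj]; push_cast; ring
    have e3 : i + ((n + 1 : ℕ) : ℤ) + 1 = j + 1 := by rw [hj]; push_cast; ring
    rw [e1, ← hj] at ih
    rw [e2, e3]
    have h1 := gp_add (x i) (x j) (x (j + 1))
    have h2 := hB j
    have h3 := gp_hyp hyp (x j) (x i) (x (j + 1 + 1)) (x (j + 1))
    have h4 := hA (j + 1)
    have e4 : j + 1 - 1 = j := by ring
    rw [e4] at h4
    rw [gp_comm (x j) (x i)] at h3
    have h6 : min (gp (x i) (x j) (x (j + 1))) (gp (x i) (x (j + 1 + 1)) (x (j + 1))) ≤ A + δ := by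
      linarith
    rcases min_le_iff.mp h6 with h5 | h5
    · linarith
    · exact h5

theorem chain_left {δ : ℝ} (hyp : IsHyp X δ) (x : ℤ → X) (A B : ℝ)
    (hA : ∀ i, gp (x (i - 1)) (x (i + 1)) (x i) ≤ A) (hB : ∀ i, B ≤ dist (x i) (x (i + 1)))
    (hAB : 2 * A + 3 * δ < B) (i : ℤ) (n : ℕ) :
    gp (x (i - n - 2)) (x i) (x (i - n - 1)) ≤ A + δ := by
  have hA' : ∀ k : ℤ, gp ((fun m : ℤ => x (-m)) (k - 1)) ((fun m : ℤ => x (-m)) (k + 1))
      ((fun m : ℤ => x (-m)) k) ≤ A := by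
    intro k
    have h := hA (-k)
    have e1 : -(k - 1) = -k + 1 := by ring
    have e2 : -(k + 1) = -k - 1 := by ring
    show gp (x (-(k - 1))) (x (-(k + 1))) (x (-k)) ≤ A
    rw [e1, e2, gp_comm]
    exact h
  have hB' : ∀ k : ℤ, B ≤ dist ((fun m : ℤ => x (-m)) k) ((fun m : ℤ => x (-m)) (k + 1)) := by
    intro k
    have h := hB (-(k + 1))
    have e1 : -(k + 1) + 1 = -k := by ring
    rw [e1] at h
    show B ≤ dist (x (-k)) (x (-(k + 1)))
    rw [dist_comm]
    exact h
  have h := chain_right hyp (fun m : ℤ => x (-m)) A B hA' hB' hAB (-i) n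
  have h' : gp (x (- -i)) (x (-(-i + n + 2))) (x (-(-i + n + 1))) ≤ A + δ := h
  have e1 : - -i = i := by ring
  have e2 : -(-i + (n : ℤ) + 2) = i - n - 2 := by ring
  have e3 : -(-i + (n : ℤ) + 1) = i - n - 1 := by ring
  rw [e1, e2, e3, gp_comm] at h'
  exact h'

theorem chain_mid {δ : ℝ} (hyp : IsHyp X δ) (x : ℤ → X) (A B : ℝ)
    (hA : ∀ i, gp (x (i - 1)) (x (i + 1)) (x i) ≤ A) (hB : ∀ i, B ≤ dist (x i) (x (i + 1)))
    (hAB : 2 * A + 3 * δ < B) (i j k : ℤ) (hij : i < j) (hjk : j < k) :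
    gp (x i) (x k) (x j) ≤ A + 2 * δ := by
  have hδ : 0 ≤ δ := hyp_nonneg hyp (x 0)
  obtain ⟨a, ha⟩ : ∃ a : ℕ, j = i + a + 1 := ⟨(j - i - 1).toNat, by
    rw [Int.toNat_of_nonneg (by omega)]; ring⟩
  obtain ⟨b, hb⟩ : ∃ b : ℕ, k = j + b + 1 := ⟨(k - j - 1).toNat, by
    rw [Int.toNat_of_nonneg (by omega)]; ring⟩
  have hl := chain_left hyp x A B hA hB hAB k b
  have e1 : k - (b : ℤ) - 2 = j - 1 := by rw [hb]; ring
  have e2 : k - (b : ℤ) - 1 = j := by rw [hb]; ring
  rw [e1, e2] at hl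
  rcases Nat.eq_zero_or_pos a with h0 | hpos
  · have e3 : j - 1 = i := by rw [ha, h0]; push_cast; ring
    rw [e3] at hl
    linarith
  · obtain ⟨a', ha'⟩ : ∃ a' : ℕ, a = a' + 1 := ⟨a - 1, by omega⟩
    have hr := chain_right hyp x A B hA hB hAB i a'
    have e3 : i + (a' : ℤ) + 2 = j := by rw [ha, ha']; push_cast; ring
    have e4 : i + (a' : ℤ) + 1 = j - 1 := by rw [ha, ha']; push_cast; ring
    rw [e3, e4] at hr
    have h1 := gp_add (x i) (x (j - 1)) (x j)
    have h2 := hB (j - 1)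
    have e5 : j - 1 + 1 = j := by ring
    rw [e5] at h2
    have h3 := gp_hyp hyp (x (j - 1)) (x i) (x k) (x j)
    rw [gp_comm (x (j - 1)) (x i)] at h3
    have h6 : min (gp (x i) (x (j - 1)) (x j)) (gp (x i) (x k) (x j)) ≤ A + 2 * δ := by
      linarith
    rcases min_le_iff.mp h6 with h5 | h5
    · linarith
    · exact h5

theorem transfer {δ : ℝ} (hyp : IsHyp X δ) (p a b a' b' : X) (K D : ℝ) (h : gp a' b' p ≤ K)
    (ha : dist a a' ≤ D) (hb : dist b b' ≤ D) (hfa : K + 2 * δ + D < dist p a')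
    (hfb : K + 2 * δ + D < dist p b') : gp a b p ≤ K + 2 * δ := by
  have hδ : 0 ≤ δ := hyp_nonneg hyp p
  have hb1 : K + 2 * δ < gp b b' p := by
    unfold gp
    have h1 := dist_triangle b' b p
    rw [dist_comm b' b] at h1
    rw [dist_comm p b'] at hfb
    linarith
  have ha1 : K + 2 * δ < gp a' a p := by
    unfold gp
    have h1 := dist_triangle a' a p
    rw [dist_comm p a'] at hfa
    rw [dist_comm a a'] at ha
    linarith
  have h1 := gp_hyp hyp a' b b' p
  have h2 : min (gp a' b p) (gp b b' p) ≤ K + δ := by linarith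
  have h3 : gp a' b p ≤ K + δ := by
    rcases min_le_iff.mp h2 with h5 | h5
    · exact h5
    · linarith
  have h4 := gp_hyp hyp a' a b p
  have h5 : min (gp a' a p) (gp a b p) ≤ K + 2 * δ := by linarith
  rcases min_le_iff.mp h5 with h6 | h6
  · linarith
  · exact h6

theorem close_of_gp {δ : ℝ} (hyp : IsHyp X δ) (x y u v : X) (K L : ℝ) (hu : gp x y u ≤ K)
    (hv : gp x y v ≤ K) (hL : |dist x u - dist x v| ≤ L) : dist u v ≤ L + 2 * K + 2 * δ := by
  have h := hyp u x v y
  unfold gp at hu hv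
  have hL1 := (abs_le.mp hL).1
  have hL2 := (abs_le.mp hL).2
  rw [dist_comm u x, dist_comm v y, dist_comm u y] at h
  rcases le_total (dist x u + dist y v) (dist y u + dist x v) with h1 | h1
  · rw [max_eq_right h1] at h
    linarith
  · rw [max_eq_left h1] at h
    linarith

end Vale.Agent.Lib.P184.Hyp
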