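import Vale.Agent.Lib.P184.Hyp.Gp
import Vale.Agent.Lib.P184.Hyp.Elem

/-!
# P184 / hyperbolic groups, modules Y1 - Y6: geometric actions on hyperbolic spaces with approximate midpoints

FROZEN STATEMENTS (do not change them; fill the sorries).  `t n := dist o (g ^ n • o)`.

ROUTE.
* Y1 `dist_mid_le`: `hyp y a m b : dist y m + dist a b ≤ max (dist y a + dist m b) (dist y b + dist a m) + 2 δ`; split the `max`.
* Y2 `uniform_proper`: `P := (hproper o (R + 2 R₀)).toFinset.card`.  Given `x`, take `k` with `dist (k • o) x ≤ R₀`.  For `h ∈ S`: `dist ((k⁻¹ * h * k) • o) o = dist (h • k • o) (k • o) ≤ dist (h • k • o) (h • x) + dist (h • x) x + dist x (k • o) ≤ R + 2 R₀`.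
  `h ↦ k⁻¹ * h * k` is injective, so `S.card ≤ P` (`Finset.card_le_card_of_injOn`).
* Y3 `exists_doubling_of_not_finOrder`: by contradiction assume `t (2 N) ≤ t N + 3 δ` for all `N > 0`.  `c₁ := t 1 + 3 δ`, `C := c₁ + 2 μ + 4 δ`, `P` from `hunif C`.
  (i) Fix `J`, let `n ≤ J` maximize `t` on `{0..J}` (`Finset.exists_max_image`), `T := t n`.  Then `t j ≤ T + c₁` for all `j ≤ 2 J`: clear for `j ≤ J`; for `j = 2 a` (`1 ≤ a ≤ J`) `t j ≤ t a + 3 δ`; for `j = 2 a + 1`, `t j ≤ t (2 a) + t 1` (triangle inequality + `hiso`).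
  (ii) Let `m` be a `μ`-midpoint of `a := o`, `b := g ^ n • o`; for `i ≤ n`, `m' := g ^ i • m` is a `μ`-midpoint of `a' := g ^ i • o`, `b' := g ^ (n + i) • o`, `dist a' b' = T`.  By Y1 for `(a', b', m')`:
  `dist a m' ≤ max (t i) (t (n + i)) - T / 2 + μ + 2 δ ≤ T / 2 + c₁ + μ + 2 δ` and `dist b m' ≤ max (t (n - i)) (t i) - T / 2 + μ + 2 δ ≤ T / 2 + μ + 2 δ`; by Y1 for `(a, b, m)` with `y = m'`: `dist m' m ≤ C`.
  (iii) the `n + 1` elements `g ^ i`, `i ≤ n`, are distinct (`injective_pow_iff_not_isOfFinOrder`), so `n + 1 ≤ P`.  Hence for every `J` the maximum of `t` on `{0..J}` is attained at some `n < P`, so `t j ≤ T∞ := max_{n < P} t n` for ALL `j`.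
  (iv) `hunif T∞` at `x = o` bounds the number of distinct powers of `g`: contradiction with infinite order.
* Y4 `linear_growth_of_doubling`: `γ := g ^ N`, `x i := γ ^ i • o`, `A := gp (γ⁻¹ • o) (γ • o) o = t N - t (2 N) / 2`, `B := t N`, `2 A + 3 δ < B`.  `chain_right` (with `i = 0`) gives `gp (x 0) (x (k + 2)) (x (k + 1)) ≤ A + δ`, i.e.
  `dist (x 0) (x (k + 2)) ≥ dist (x 0) (x (k + 1)) + B - 2 A - 2 δ`; `η := B - 2 A - 2 δ > δ ≥ 0`, also `dist (x 0) (x 1) = B ≥ η` (`A ≥ 0`).  So `t (N k) ≥ η k`.  For general `n = N k + r`, `r < N`: `t (N k) ≤ t n + t r ≤ t n + N t 1`.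
  So `t n ≥ (η / N) n - η - N t 1`.
* Y5 `exists_linear_of_affine`: `n₀ := ⌈2 c₂ / c₁⌉₊ + 1`; for `n ≥ n₀`: `t n ≥ c₁ n / 2`; for `1 ≤ n < n₀`: `t n ≥ ε := min` over the finite set `> 0`, so `t n ≥ (ε / n₀) n`; `c := min (c₁ / 2) (ε / n₀)`.
* Y6 `exists_small_displacement_of_finOrder`: `g ^ n = 1`, `n > 0`.  `ρ x := (Finset.range n).sup' _ (fun i => dist x (g ^ i • o))` (or `⨆ i : Fin n`), `ρ (g • x) = ρ x` (`g` permutes the orbit), `r := ⨅ x, ρ x ≥ 0`; take `x` with `ρ x < r + 1` (`exists_lt_of_ciInf_lt`); `m` a `μ`-midpoint of `x`, `g • x`;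
  by Y1, `ρ m ≤ ρ x - dist x (g • x) / 2 + μ + 2 δ`, and `r ≤ ρ m`.  So `dist x (g • x) ≤ 2 + 2 μ + 4 δ`.
-/

namespace Vale.Agent.Lib.P184.Hyp

variable {G X : Type*} [Group G] [PseudoMetricSpace X] [MulAction G X]

theorem dist_mid_le {δ : ℝ} (hyp : IsHyp X δ) (a b m : X) (μ : ℝ) (h1 : dist a m ≤ dist a b / 2 + μ)
    (h2 : dist m b ≤ dist a b / 2 + μ) (y : X) :
    dist y m ≤ max (dist y a) (dist y b) - dist a b / 2 + μ + 2 * δ := by
  have h := hyp y a m b
  rcases le_total (dist y a + dist m b) (dist y b + dist a m) with h' | h'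
  · rw [max_eq_right h'] at h
    have := le_max_right (dist y a) (dist y b)
    linarith
  · rw [max_eq_left h'] at h
    have := le_max_left (dist y a) (dist y b)
    linarith

theorem uniform_proper (hiso : ∀ (g : G) (x y : X), dist (g • x) (g • y) = dist x y)
    (hproper : ∀ (o : X) (R : ℝ), {g : G | dist (g • o) o ≤ R}.Finite)
    (o : X) (R₀ : ℝ) (hcob : ∀ y : X, ∃ g : G, dist (g • o) y ≤ R₀) (R : ℝ) :
    ∃ P : ℕ, ∀ (x : X) (S : Finset G), (∀ h ∈ S, dist (h • x) x ≤ R) → S.card ≤ P := by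
  classical
  refine ⟨(hproper o (R + 2 * R₀)).toFinset.card, ?_⟩
  intro x S hS
  obtain ⟨k, hk⟩ := hcob x
  refine Finset.card_le_card_of_injOn (fun h => k⁻¹ * h * k) ?_ ?_
  · intro h hh
    have h1 : dist ((k⁻¹ * h * k) • o) o = dist (h • k • o) (k • o) := by
      rw [← hiso k ((k⁻¹ * h * k) • o) o, ← mul_smul, ← mul_smul]
      congr 2
      group
    have h2 : dist ((k⁻¹ * h * k) • o) o ≤ R + 2 * R₀ := by
      rw [h1]
      calc dist (h • k • o) (k • o)
          ≤ dist (h • k • o) (h • x) + dist (h • x) x + dist x (k • o) := dist_triangle4 _ _ _ _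
        _ ≤ R₀ + R + R₀ := by
          have a1 : dist (h • k • o) (h • x) ≤ R₀ := by rw [hiso]; exact hk
          have a2 := hS h hh
          have a3 : dist x (k • o) ≤ R₀ := by rw [dist_comm]; exact hk
          linarith
        _ = R + 2 * R₀ := by ring
    exact (Set.Finite.mem_toFinset _).mpr h2
  · intro a _ b _ hab
    simpa using hab

theorem exists_doubling_of_not_finOrder
    (hiso : ∀ (g : G) (x y : X), dist (g • x) (g • y) = dist x y) {δ : ℝ} (hyp : IsHyp X δ) (μ : ℝ)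
    (hmid : ∀ a b : X, ∃ m, dist a m ≤ dist a b / 2 + μ ∧ dist m b ≤ dist a b / 2 + μ)
    (hunif : ∀ R : ℝ, ∃ P : ℕ, ∀ (x : X) (S : Finset G), (∀ h ∈ S, dist (h • x) x ≤ R) → S.card ≤ P)
    (g : G) (hg : ¬ IsOfFinOrder g) (o : X) :
    ∃ N : ℕ, 0 < N ∧ dist o (g ^ N • o) + 3 * δ < dist o (g ^ (2 * N) • o) := by
  classical
  by_contra hcon
  push Not at hcon
  have hδ : 0 ≤ δ := hyp_nonneg hyp o
  set t : ℕ → ℝ := fun n => dist o (g ^ n • o) with ht
  have ht0 : ∀ n, 0 ≤ t n := fun n => dist_nonneg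
  have htz : t 0 = 0 := by simp [ht]
  have hinj : Function.Injective (fun i : ℕ => g ^ i) := injective_pow_iff_not_isOfFinOrder.2 hg
  -- distances in the orbit
  have hF1 : ∀ i k : ℕ, dist (g ^ i • o) (g ^ (i + k) • o) = t k := by
    intro i k
    rw [pow_add, mul_smul, hiso]
  have hF2 : ∀ a b : ℕ, t (a + b) ≤ t a + t b := by
    intro a b
    have h := dist_triangle o (g ^ a • o) (g ^ (a + b) • o)
    rw [hF1] at h
    exact h
  have hdbl : ∀ a : ℕ, t (2 * a) ≤ t a + 3 * δ := by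
    intro a
    rcases Nat.eq_zero_or_pos a with rfl | ha
    · simp only [Nat.mul_zero, htz]; linarith
    · exact hcon a ha
  set c₁ : ℝ := t 1 + 3 * δ with hc₁
  have hc₁0 : 0 ≤ c₁ := by have := ht0 1; rw [hc₁]; linarith
  set C : ℝ := c₁ + 2 * μ + 4 * δ with hC
  obtain ⟨P, hP⟩ := hunif C
  -- main claim
  have hmain : ∀ J n : ℕ, n ≤ J → (∀ j ≤ J, t j ≤ t n) → n + 1 ≤ P := by
    intro J n hnJ hmax
    set T : ℝ := t n with hT
    have hi : ∀ j ≤ 2 * J, t j ≤ T + c₁ := by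
      intro j hj
      have ha : j / 2 ≤ J := by omega
      have h1 := hdbl (j / 2)
      have h2 := hmax (j / 2) ha
      rcases Nat.even_or_odd' j with ⟨a, rfl | rfl⟩
      · have : 2 * a / 2 = a := by omega
        rw [this] at h1 h2
        have := ht0 1
        rw [hc₁]; linarith
      · have : (2 * a + 1) / 2 = a := by omega
        rw [this] at h1 h2
        have h3 := hF2 (2 * a) 1
        rw [hc₁]; linarith
    obtain ⟨m, hm1, hm2⟩ := hmid o (g ^ n • o)
    have hTd : dist o (g ^ n • o) = T := rfl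
    rw [hTd] at hm1 hm2
    have hclose : ∀ i ≤ n, dist (g ^ i • m) m ≤ C := by
      intro i hin
      have hab' : dist (g ^ i • o) (g ^ (i + n) • o) = T := hF1 i n
      have hbeq : g ^ (i + n) • o = g ^ i • g ^ n • o := by rw [pow_add, mul_smul]
      have h1' : dist (g ^ i • o) (g ^ i • m) ≤ dist (g ^ i • o) (g ^ (i + n) • o) / 2 + μ := by
        rw [hab', hiso]; exact hm1
      have h2' : dist (g ^ i • m) (g ^ (i + n) • o) ≤ dist (g ^ i • o) (g ^ (i + n) • o) / 2 + μ := by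
        rw [hab', hbeq, hiso]; exact hm2
      have hA := dist_mid_le hyp _ _ _ μ h1' h2' o
      have hB := dist_mid_le hyp _ _ _ μ h1' h2' (g ^ n • o)
      rw [hab'] at hA hB
      have e1 : dist o (g ^ i • o) ≤ T := hmax i (le_trans hin hnJ)
      have e2 : dist o (g ^ (i + n) • o) ≤ T + c₁ := hi (i + n) (by omega)
      have e3 : dist (g ^ n • o) (g ^ i • o) ≤ T := by
        obtain ⟨k, rfl⟩ := Nat.exists_eq_add_of_le hin
        rw [dist_comm, hF1]
        exact hmax k (by omega)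
      have e4 : dist (g ^ n • o) (g ^ (i + n) • o) ≤ T := by
        rw [add_comm i n, hF1]
        exact hmax i (le_trans hin hnJ)
      have hA' : dist o (g ^ i • m) ≤ T / 2 + c₁ + μ + 2 * δ := by
        have : max (dist o (g ^ i • o)) (dist o (g ^ (i + n) • o)) ≤ T + c₁ :=
          max_le (by linarith) e2
        linarith
      have hB' : dist (g ^ n • o) (g ^ i • m) ≤ T / 2 + μ + 2 * δ := by
        have : max (dist (g ^ n • o) (g ^ i • o)) (dist (g ^ n • o) (g ^ (i + n) • o)) ≤ T :=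
          max_le e3 e4
        linarith
      have hm1' : dist o m ≤ dist o (g ^ n • o) / 2 + μ := by rw [hTd]; exact hm1
      have hm2' : dist m (g ^ n • o) ≤ dist o (g ^ n • o) / 2 + μ := by rw [hTd]; exact hm2
      have hCC := dist_mid_le hyp _ _ _ μ hm1' hm2' (g ^ i • m)
      rw [hTd] at hCC
      have : max (dist (g ^ i • m) o) (dist (g ^ i • m) (g ^ n • o)) ≤ T / 2 + c₁ + μ + 2 * δ := by
        apply max_le
        · rw [dist_comm]; exact hA'
        · rw [dist_comm]; linarith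
      rw [hC]; linarith
    have hcard := hP m ((Finset.range (n + 1)).image (fun i : ℕ => g ^ i)) (by
      intro h hh
      obtain ⟨i, hi', rfl⟩ := Finset.mem_image.1 hh
      exact hclose i (by have := Finset.mem_range.1 hi'; omega))
    rw [Finset.card_image_of_injective _ hinj, Finset.card_range] at hcard
    exact hcard
  -- uniform bound on `t`
  set Tinf : ℝ := ∑ n ∈ Finset.range P, t n with hTinf
  have hbound : ∀ j, t j ≤ Tinf := by
    intro j
    obtain ⟨n, hn, hmax⟩ := Finset.exists_max_image (Finset.range (j + 1)) t ⟨0, by simp⟩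
    have hnj : n ≤ j := by have := Finset.mem_range.1 hn; omega
    have hnP := hmain j n hnj (fun i hi => hmax i (Finset.mem_range.2 (by omega)))
    have h1 : t j ≤ t n := hmax j (Finset.mem_range.2 (by omega))
    have h2 : t n ≤ Tinf :=
      Finset.single_le_sum (f := t) (fun i _ => ht0 i) (Finset.mem_range.2 (by omega))
    linarith
  obtain ⟨P', hP'⟩ := hunif Tinf
  have hcard := hP' o ((Finset.range (P' + 1)).image (fun i : ℕ => g ^ i)) (by
    intro h hh
    obtain ⟨i, _, rfl⟩ := Finset.mem_image.1 hh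
    rw [dist_comm]
    exact hbound i)
  rw [Finset.card_image_of_injective _ hinj, Finset.card_range] at hcard
  omega

theorem linear_growth_of_doubling (hiso : ∀ (g : G) (x y : X), dist (g • x) (g • y) = dist x y)
    {δ : ℝ} (hyp : IsHyp X δ) (g : G) (o : X) (N : ℕ) (hN : 0 < N)
    (hd : dist o (g ^ N • o) + 3 * δ < dist o (g ^ (2 * N) • o)) :
    ∃ c₁ c₂ : ℝ, 0 < c₁ ∧ ∀ n : ℕ, c₁ * n - c₂ ≤ dist o (g ^ n • o) := by
  have hδ : 0 ≤ δ := hyp_nonneg hyp o
  set t : ℕ → ℝ := fun n => dist o (g ^ n • o) with ht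
  have ht0 : t 0 = 0 := by simp [ht]
  have htnn : ∀ n, 0 ≤ t n := fun n => dist_nonneg
  have hdist : ∀ i j : ℕ, dist (g ^ i • o) (g ^ (i + j) • o) = t j := by
    intro i j
    rw [pow_add, mul_smul, hiso]
  have hadd : ∀ a b, t (a + b) ≤ t a + t b := by
    intro a b
    calc t (a + b) = dist o (g ^ (a + b) • o) := rfl
      _ ≤ dist o (g ^ a • o) + dist (g ^ a • o) (g ^ (a + b) • o) := dist_triangle _ _ _
      _ = t a + t b := by rw [hdist]
  have hlin : ∀ r : ℕ, t r ≤ r * t 1 := by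
    intro r
    induction r with
    | zero => simp [ht0]
    | succ r ih =>
      have := hadd r 1
      push_cast
      linarith
  set γ : G := g ^ N with hγ
  set x : ℤ → X := fun i => γ ^ i • o with hx
  set u : ℤ → ℝ := fun z => dist o (γ ^ z • o) with hu
  have hxd : ∀ a b : ℤ, dist (x a) (x b) = u (b - a) := by
    intro a b
    show dist (γ ^ a • o) (γ ^ b • o) = dist o (γ ^ (b - a) • o)
    have e : γ ^ b = γ ^ a * γ ^ (b - a) := by
      rw [← zpow_add]; congr 1; ring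
    rw [e, mul_smul, hiso]
  have hunat : ∀ k : ℕ, u (k : ℤ) = t (N * k) := by
    intro k
    show dist o (γ ^ (k : ℤ) • o) = dist o (g ^ (N * k) • o)
    rw [zpow_natCast, hγ, ← pow_mul]
  have hu1 : u 1 = t N := by
    have := hunat 1
    simpa using this
  have hu2 : u 2 = t (2 * N) := by
    have := hunat 2
    rw [mul_comm N 2] at this
    simpa using this
  have h2N : t (2 * N) ≤ 2 * t N := by
    have := hadd N N
    rw [← two_mul] at this
    linarith
  set A : ℝ := t N - t (2 * N) / 2 with hA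
  set B : ℝ := t N with hB
  have hAnn : 0 ≤ A := by rw [hA]; linarith
  have hgpA : ∀ i, gp (x (i - 1)) (x (i + 1)) (x i) ≤ A := by
    intro i
    unfold gp
    rw [hxd, dist_comm (x (i + 1)) (x i), hxd, hxd]
    have e1 : i - (i - 1) = 1 := by ring
    have e2 : i + 1 - i = 1 := by ring
    have e3 : i + 1 - (i - 1) = 2 := by ring
    rw [e1, e2, e3, hu1, hu2, hA]
    linarith
  have hBle : ∀ i, B ≤ dist (x i) (x (i + 1)) := by
    intro i
    rw [hxd]
    have e2 : i + 1 - i = 1 := by ring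
    rw [e2, hu1]
  have hAB : 2 * A + 3 * δ < B := by
    rw [hA, hB]
    have : t N + 3 * δ < t (2 * N) := hd
    linarith
  set η : ℝ := B - 2 * A - 2 * δ with hη
  have hηpos : 0 < η := by rw [hη]; linarith
  have hstep : ∀ k : ℕ, t (N * (k + 1)) + η ≤ t (N * (k + 2)) := by
    intro k
    have h := chain_right hyp x A B hgpA hBle hAB 0 k
    unfold gp at h
    rw [hxd, dist_comm (x (0 + (k : ℤ) + 2)) (x (0 + (k : ℤ) + 1)), hxd, hxd] at h
    have e1 : 0 + (k : ℤ) + 1 - 0 = ((k + 1 : ℕ) : ℤ) := by push_cast; ring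
    have e2 : 0 + (k : ℤ) + 2 - (0 + (k : ℤ) + 1) = 1 := by ring
    have e3 : 0 + (k : ℤ) + 2 - 0 = ((k + 2 : ℕ) : ℤ) := by push_cast; ring
    rw [e1, e2, e3, hunat, hunat, hu1] at h
    rw [hη]
    linarith
  have hgrow : ∀ k : ℕ, η * k ≤ t (N * k) := by
    intro k
    induction k with
    | zero => simp [ht0]
    | succ k ih =>
      rcases Nat.eq_zero_or_pos k with rfl | hk
      · simp only [Nat.zero_add, Nat.mul_one, Nat.cast_one, mul_one]
        show η ≤ B
        rw [hη]; linarith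
      · obtain ⟨j, rfl⟩ : ∃ j, k = j + 1 := ⟨k - 1, by omega⟩
        have := hstep j
        push_cast at ih ⊢
        have e : N * (j + 1 + 1) = N * (j + 2) := by ring
        rw [e]
        linarith
  have hNR : (0 : ℝ) < N := by exact_mod_cast hN
  refine ⟨η / N, η + N * t 1, div_pos hηpos hNR, ?_⟩
  intro n
  show η / N * n - (η + N * t 1) ≤ t n
  have hdm : N * (n / N) + n % N = n := Nat.div_add_mod n N
  have hr : n % N < N := Nat.mod_lt n hN
  have h1 : t (N * (n / N)) ≤ t n + t (n % N) := by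
    calc t (N * (n / N)) = dist o (g ^ (N * (n / N)) • o) := rfl
      _ ≤ dist o (g ^ n • o) + dist (g ^ n • o) (g ^ (N * (n / N)) • o) := dist_triangle _ _ _
      _ = t n + t (n % N) := by
        rw [dist_comm (g ^ n • o)]
        have := hdist (N * (n / N)) (n % N)
        rw [hdm] at this
        rw [this]
  have h2 : t (n % N) ≤ N * t 1 := by
    refine (hlin _).trans ?_
    have : ((n % N : ℕ) : ℝ) ≤ N := by exact_mod_cast hr.le
    exact mul_le_mul_of_nonneg_right this (htnn 1)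
  have h3 := hgrow (n / N)
  have h4 : (n : ℝ) ≤ N * ((n / N : ℕ) : ℝ) + N := by
    have : n ≤ N * (n / N) + N := by linarith
    exact_mod_cast this
  have h5 : η / N * n ≤ η * ((n / N : ℕ) : ℝ) + η := by
    rw [div_mul_eq_mul_div, div_le_iff₀ hNR]
    nlinarith
  linarith

theorem exists_linear_of_affine (t : ℕ → ℝ) (c₁ c₂ : ℝ) (hc : 0 < c₁) (h : ∀ n : ℕ, c₁ * n - c₂ ≤ t n)
    (hpos : ∀ n : ℕ, 0 < n → 0 < t n) (h0 : 0 ≤ t 0) : ∃ c : ℝ, 0 < c ∧ ∀ n : ℕ, c * n ≤ t n := by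
  classical
  set n₀ : ℕ := ⌈2 * c₂ / c₁⌉₊ + 1 with hn₀
  have hn₀pos : (0 : ℝ) < n₀ := by rw [hn₀]; positivity
  -- minimum over 1 ≤ n ≤ n₀
  obtain ⟨k, hkmem, hkmin⟩ := Finset.exists_min_image (Finset.Icc 1 n₀) t
    ⟨1, Finset.mem_Icc.mpr ⟨le_rfl, by omega⟩⟩
  have hk1 : 0 < k := by have := (Finset.mem_Icc.mp hkmem).1; omega
  have hε : 0 < t k := hpos k hk1
  refine ⟨min (c₁ / 2) (t k / n₀), lt_min (by linarith) (div_pos hε hn₀pos), ?_⟩
  intro n
  rcases Nat.eq_zero_or_pos n with rfl | hn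
  · simpa using h0
  have hnR : (0 : ℝ) < n := by exact_mod_cast hn
  by_cases hcase : n ≤ n₀
  · have h1 : t k ≤ t n := hkmin n (Finset.mem_Icc.mpr ⟨hn, hcase⟩)
    have h2 : (n : ℝ) ≤ n₀ := by exact_mod_cast hcase
    calc min (c₁ / 2) (t k / n₀) * n ≤ (t k / n₀) * n :=
          mul_le_mul_of_nonneg_right (min_le_right _ _) hnR.le
      _ ≤ (t k / n₀) * n₀ := mul_le_mul_of_nonneg_left h2 (div_pos hε hn₀pos).le
      _ = t k := by field_simp
      _ ≤ t n := h1
  · have h2 : (n₀ : ℝ) ≤ n := by exact_mod_cast (by omega : n₀ ≤ n)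
    have h3 : 2 * c₂ / c₁ ≤ n₀ := by
      rw [hn₀]; push_cast
      have := Nat.le_ceil (2 * c₂ / c₁)
      linarith
    have h4 : 2 * c₂ ≤ c₁ * n := by
      have : 2 * c₂ / c₁ ≤ n := h3.trans h2
      rw [div_le_iff₀ hc] at this
      linarith
    calc min (c₁ / 2) (t k / n₀) * n ≤ (c₁ / 2) * n :=
          mul_le_mul_of_nonneg_right (min_le_left _ _) hnR.le
      _ ≤ c₁ * n - c₂ := by linarith
      _ ≤ t n := h n

theorem exists_small_displacement_of_finOrder
    (hiso : ∀ (g : G) (x y : X), dist (g • x) (g • y) = dist x y) {δ : ℝ} (hyp : IsHyp X δ) (μ : ℝ)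
    (hmid : ∀ a b : X, ∃ m, dist a m ≤ dist a b / 2 + μ ∧ dist m b ≤ dist a b / 2 + μ)
    (g : G) (hg : IsOfFinOrder g) (o : X) : ∃ x : X, dist x (g • x) ≤ 2 + 2 * μ + 4 * δ := by
  classical
  obtain ⟨n, hn, hgn⟩ := isOfFinOrder_iff_pow_eq_one.mp hg
  have hne : (Finset.range n).Nonempty := ⟨0, Finset.mem_range.mpr hn⟩
  set ρ : X → ℝ := fun x => (Finset.range n).sup' hne (fun i => dist x (g ^ i • o)) with hρ
  have hρle : ∀ x i, i < n → dist x (g ^ i • o) ≤ ρ x := fun x i hi =>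
    Finset.le_sup' (fun i => dist x (g ^ i • o)) (Finset.mem_range.mpr hi)
  have hρnn : ∀ x, 0 ≤ ρ x := fun x => le_trans dist_nonneg (hρle x 0 hn)
  have hbdd : BddBelow (Set.range ρ) := ⟨0, by rintro _ ⟨x, rfl⟩; exact hρnn x⟩
  have : Nonempty X := ⟨o⟩
  obtain ⟨x, hx⟩ := exists_lt_of_ciInf_lt (show (⨅ x, ρ x) < (⨅ x, ρ x) + 1 by linarith)
  obtain ⟨m, hm1, hm2⟩ := hmid x (g • x)
  have hr : (⨅ x, ρ x) ≤ ρ m := ciInf_le hbdd m
  have hρm : ρ m ≤ ρ x - dist x (g • x) / 2 + μ + 2 * δ := by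
    refine Finset.sup'_le hne _ ?_
    intro i hi
    have hi' := Finset.mem_range.mp hi
    have h1 := dist_mid_le hyp x (g • x) m μ hm1 hm2 (g ^ i • o)
    have h2 : dist (g ^ i • o) x ≤ ρ x := by rw [dist_comm]; exact hρle x i hi'
    have h3 : dist (g ^ i • o) (g • x) ≤ ρ x := by
      have e : g ^ i • o = g • (g ^ ((i + n - 1) % n) • o) := by
        rw [← pow_eq_pow_mod _ hgn, ← mul_smul, ← pow_succ']
        have : i + n - 1 + 1 = i + n := by omega
        rw [this, pow_add, hgn, mul_one]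
      rw [e, hiso, dist_comm]
      exact hρle x _ (Nat.mod_lt _ hn)
    rw [dist_comm m]
    have := max_le h2 h3
    linarith
  exact ⟨x, by linarith⟩

end Vale.Agent.Lib.P184.Hyp
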