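import Vale.Agent.Lib.P184.Hyp.Axis
import Vale.Agent.Lib.P184.CentHom
import Vale.Agent.Lib.P184.Centralizer

/-!
# P184 / hyperbolic spaces, module W8: loxodromic WPD elements

FROZEN STATEMENTS (do not change them; fill the sorries).

ROUTE for `relIndex_ne_zero_of_wpd`.  `t n := dist o (g ^ n • o)`; `exists_doubling t c hc0 hc (3 δ)` gives `N > 0` with `t N + 3 δ < t (2 N)`.  `γ := g ^ N`.
`gp (γ⁻¹ • o) (γ • o) o = (t N + t N - t (2 N)) / 2` (`dist (γ⁻¹ • o) o = dist o (γ • o)`, `dist (γ⁻¹ • o) (γ • o) = dist o (γ ^ 2 • o)` by `hiso γ`), so the hypothesis `hAB` of `exists_uniform_close` holds;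
`hinf`: `dist o (γ ^ M • o) = t (N M) ≥ c N M`.  Get `κ`.  `hwpd κ` gives `N₀` and a finite set `Φ`.
For `z` commuting with `g`: `z` commutes with `γ`; take `k` with `dist (z • o) (γ ^ k • o) ≤ κ`; `z' := z * g ^ (-(N k))  = z * γ ^ (-k)` commutes with `g`,
`dist o (z' • o) = dist o (γ ^ (-k) • z • o) = dist (γ ^ k • o) (z • o) ≤ κ` and `dist (g ^ N₀ • o) (z' • g ^ N₀ • o) = dist (g ^ N₀ • o) (g ^ N₀ • z' • o) = dist o (z' • o) ≤ κ`.  So `z' ∈ Φ`; `relIndex_ne_zero_of_cover`.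

ROUTE for `trace_vanish_of_wpd`: `ℓ h := dist o (h • o)` is subadditive, `ℓ (g ^ j) ≥ c |j|` for `j : ℤ` (cases `j = n`, `j = -n`; `dist o (g⁻¹ ^ n • o) = dist (g ^ n • o) o`).  Then repeat the argument of clause (2) of
`Vale/Agent/Results/P184/CentralizerCriterion.lean` (copy it: `exists_hom_of_finite_index` + `trace_vanish_of_centralizer_hom`), or import that file and use `(CentralizerCriterion.result e hsum hidem ℓ hℓ g).2.1`.
-/

namespace Vale.Agent.Lib.P184.Hyp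

open scoped BigOperators

theorem relIndex_ne_zero_of_wpd {G X : Type*} [Group G] [PseudoMetricSpace X] [MulAction G X]
    (hiso : ∀ (g : G) (x y : X), dist (g • x) (g • y) = dist x y) {δ : ℝ} (hyp : IsHyp X δ) (g : G)
    (o : X) (c : ℝ) (hc0 : 0 < c) (hc : ∀ n : ℕ, c * n ≤ dist o (g ^ n • o))
    (hwpd : ∀ R : ℝ, ∃ N : ℕ,
      {h : G | dist o (h • o) ≤ R ∧ dist (g ^ N • o) (h • g ^ N • o) ≤ R}.Finite) :
    (Subgroup.zpowers g).relIndex (Subgroup.centralizer {g}) ≠ 0 := by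
  obtain ⟨N, hN0, hN⟩ := exists_doubling (fun n : ℕ => dist o (g ^ n • o)) c hc0 hc (3 * δ)
  set γ : G := g ^ N with hγ
  have h1 : dist (γ⁻¹ • o) o = dist o (γ • o) := by
    have := hiso γ (γ⁻¹ • o) o
    rw [smul_inv_smul] at this
    exact this.symm
  have h2 : dist (γ⁻¹ • o) (γ • o) = dist o (g ^ (2 * N) • o) := by
    have := hiso γ (γ⁻¹ • o) (γ • o)
    rw [smul_inv_smul, ← mul_smul] at this
    rw [← this, hγ, ← pow_add, two_mul]
  have hAB : 2 * gp (γ⁻¹ • o) (γ • o) o + 3 * δ < dist o (γ • o) := by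
    unfold gp
    rw [h1, h2, dist_comm (γ • o) o]
    linarith
  have hinf : ∀ R : ℝ, ∃ M : ℕ, 0 < M ∧ R < dist o (γ ^ M • o) := by
    intro R
    obtain ⟨M, hM⟩ := exists_nat_gt (R / c)
    refine ⟨M + 1, Nat.succ_pos M, ?_⟩
    rw [hγ, ← pow_mul]
    have h3 := hc (N * (M + 1))
    rw [div_lt_iff₀ hc0] at hM
    have hN1 : (1 : ℝ) ≤ N := by exact_mod_cast hN0
    have hM0 : (0 : ℝ) ≤ M := Nat.cast_nonneg M
    push_cast at h3
    have h4 : c * (M : ℝ) ≤ c * ((N : ℝ) * ((M : ℝ) + 1)) := by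
      apply mul_le_mul_of_nonneg_left _ hc0.le
      nlinarith
    linarith
  obtain ⟨κ, hκ⟩ := exists_uniform_close hiso hyp γ o hAB hinf
  obtain ⟨N₀, hΦ⟩ := hwpd κ
  refine relIndex_ne_zero_of_cover g _ hΦ ?_
  intro z hz
  obtain ⟨k, hk⟩ := hκ z (hz.pow_right N)
  refine ⟨-((N : ℤ) * k), ?_⟩
  set w : G := γ ^ k with hw
  have hwg : g ^ (-((N : ℤ) * k)) = w⁻¹ := by
    rw [zpow_neg, zpow_mul, zpow_natCast]
  have hzw : Commute z w := (hz.pow_right N).zpow_right k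
  have hwgc : Commute w g := ((Commute.refl g).pow_left N).zpow_left k
  rw [hwg]
  have h5 : (z * w⁻¹) • o = w⁻¹ • z • o := by
    rw [← mul_smul, (hzw.inv_right).eq]
  have h6 : dist o ((z * w⁻¹) • o) ≤ κ := by
    rw [h5]
    have := hiso w o (w⁻¹ • z • o)
    rw [smul_inv_smul] at this
    rw [← this, dist_comm]
    exact hk
  refine ⟨h6, ?_⟩
  have hcomm : Commute (z * w⁻¹) (g ^ N₀) := (hz.mul_left (hwgc.inv_left)).pow_right N₀
  rw [← mul_smul, hcomm.eq, mul_smul, hiso]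
  exact h6

private theorem trace_vanish_of_finite_index {G : Type*} [Group G] {q : ℕ}
    (e : Matrix (Fin q) (Fin q) (G → ℂ))
    (hsum : ∀ i j, Summable fun g => ‖e i j g‖)
    (hidem : ∀ i j g, ∑ k, ∑' h, e i k h * e k j (h⁻¹ * g) = e i j g)
    (ℓ : G → ℝ) (hℓ : ∀ a b, ℓ (a * b) ≤ ℓ a + ℓ b) (g : G)
    (c : ℝ) (hc0 : 0 < c) (hc : ∀ j : ℤ, c * |(j : ℝ)| ≤ ℓ (g ^ j))
    (hfin : (Subgroup.zpowers g).relIndex (Subgroup.centralizer {g}) ≠ 0) :
    ∑' x : (ConjClasses.mk g).carrier, ∑ i, e i i x = 0 := by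
  have hg : ¬ IsOfFinOrder g := by
    intro hfo
    obtain ⟨n, hn, hpow⟩ := isOfFinOrder_iff_pow_eq_one.1 hfo
    have h1 : ∀ k : ℕ, c * ((n : ℝ) * k) ≤ ℓ 1 := by
      intro k
      have := hc ((n * k : ℕ) : ℤ)
      rw [zpow_natCast, pow_mul, hpow, one_pow] at this
      simpa [abs_of_nonneg] using this
    obtain ⟨k, hk⟩ := exists_nat_gt (ℓ 1 / c)
    have h2 := h1 k
    have hn' : (1 : ℝ) ≤ n := by exact_mod_cast hn
    have h3 : ℓ 1 < c * k := by
      rw [div_lt_iff₀ hc0] at hk; linarith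
    have hk0 : (0 : ℝ) ≤ k := Nat.cast_nonneg k
    have h4 : c * (k : ℝ) ≤ c * ((n : ℝ) * k) := by
      apply mul_le_mul_of_nonneg_left _ hc0.le
      nlinarith
    linarith
  obtain ⟨M, φ, hM, hadd, hform, hφg⟩ := exists_hom_of_finite_index g hg hfin
  have hpowle : ∀ (z : G) (n : ℕ), ℓ (z ^ (n + 1)) ≤ (n + 1 : ℝ) * ℓ z := by
    intro z n
    induction n with
    | zero => simp
    | succ n ih =>
      have := hℓ (z ^ (n + 1)) z
      rw [← pow_succ] at this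
      push_cast
      linarith
  refine trace_vanish_of_centralizer_hom e hsum hidem (fun h => ℓ h / c) ?_ g φ hadd ?_ ?_
  · intro a b
    rw [← add_div]
    exact div_le_div_of_nonneg_right (hℓ a b) hc0.le
  · intro z hz
    obtain ⟨j, hj, hφ⟩ := hform z hz
    have hM' : (0 : ℝ) < M := by exact_mod_cast hM
    obtain ⟨n, rfl⟩ : ∃ n, M = n + 1 := ⟨M - 1, by omega⟩
    have h1 := hpowle z n
    have h2 := hc j
    rw [← hj] at h2
    rw [hφ, abs_div, abs_of_pos hM', div_le_div_iff₀ hM' hc0]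
    push_cast at hM' ⊢
    nlinarith
  · rw [hφg]; exact one_ne_zero

theorem trace_vanish_of_wpd {G : Type*} [Group G] {q : ℕ} (e : Matrix (Fin q) (Fin q) (G → ℂ))
    (hsum : ∀ i j, Summable fun g => ‖e i j g‖)
    (hidem : ∀ i j g, ∑ k, ∑' h, e i k h * e k j (h⁻¹ * g) = e i j g)
    {X : Type*} [PseudoMetricSpace X] [MulAction G X]
    (hiso : ∀ (g : G) (x y : X), dist (g • x) (g • y) = dist x y) {δ : ℝ} (hyp : IsHyp X δ) (g : G)
    (o : X) (c : ℝ) (hc0 : 0 < c) (hc : ∀ n : ℕ, c * n ≤ dist o (g ^ n • o))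
    (hwpd : ∀ R : ℝ, ∃ N : ℕ,
      {h : G | dist o (h • o) ≤ R ∧ dist (g ^ N • o) (h • g ^ N • o) ≤ R}.Finite) :
    ∑' x : (ConjClasses.mk g).carrier, ∑ i, e i i x = 0 := by
  refine trace_vanish_of_finite_index e hsum hidem (fun h => dist o (h • o)) ?_ g c hc0 ?_
    (relIndex_ne_zero_of_wpd hiso hyp g o c hc0 hc hwpd)
  · intro a b
    have h1 := dist_triangle o (a • o) ((a * b) • o)
    rw [mul_smul, hiso] at h1
    rw [mul_smul]
    exact h1
  · intro j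
    rcases Int.eq_nat_or_neg j with ⟨n, rfl | rfl⟩
    · rw [zpow_natCast]
      have := hc n
      simpa [abs_of_nonneg] using this
    · rw [zpow_neg, zpow_natCast]
      have h1 := hiso (g ^ n) o ((g ^ n)⁻¹ • o)
      rw [smul_inv_smul] at h1
      rw [← h1, dist_comm]
      have := hc n
      simpa [abs_of_nonneg] using this

end Vale.Agent.Lib.P184.Hyp
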