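import Vale.Agent.Lib.P184.Hyp.Group
import Vale.Agent.Lib.P184.Hyp.Main

/-!
# P184 / hyperbolic groups, modules Y7, Y8, Y9: the statement of Q1 for geometric actions on hyperbolic spaces

FROZEN STATEMENTS (do not change them; fill the sorries).

ROUTE.
* Y7 `finite_finOrder_classes_hyp`: as `finite_finOrder_classes` in `Vale/Agent/Lib/P184/Geo/Classes.lean`: for `x` of finite order take `q` with `dist q (x • q) ≤ D := 2 + 2 μ + 4 δ` (Y6), `h` with `dist (h • o) q ≤ R₀`; then `k := h⁻¹ * x * h` has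
  `dist (k • o) o = dist (x • h • o) (h • o) ≤ D + 2 R₀`.  So every class in the set is `ConjClasses.mk k` with `k` in the finite set `{k | dist (k • o) o ≤ D + 2 R₀}`.
* Y8 `escape_of_not_finOrder_hyp`: `uniform_proper`, `exists_doubling_of_not_finOrder`, `linear_growth_of_doubling`, and `exists_linear_of_affine` with `t n := dist o (g ^ n • o)`; positivity: if `t n = 0` with `n > 0` then `t (n k) = 0` for all `k`
  (`dist o (g ^ (n (k+1)) • o) ≤ dist o (g ^ n • o) + dist (g ^ n • o) (g ^ n • g ^ (n k) • o)`), against `c₁ n k - c₂ ≤ t (n k)` for large `k`.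
* Y9 `q1_of_geometric_hyp`: copy the last part of `Vale/Agent/Results/P184/CatZeroGroups.lean` (clause 3): `F := (finite_finOrder_classes_hyp ..).toFinset`; for `C ∉ F`, `C = ConjClasses.mk g` with `g` of infinite order; `c` from Y8;
  WPD holds with `N = 0` because `{h | dist o (h • o) ≤ R ∧ _} ⊆ {h | dist (h • o) o ≤ R}` is finite; `trace_vanish_of_wpd`.
-/

namespace Vale.Agent.Lib.P184.Hyp

open scoped BigOperators

variable {G X : Type*} [Group G] [PseudoMetricSpace X] [MulAction G X]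

theorem finite_finOrder_classes_hyp (hiso : ∀ (g : G) (x y : X), dist (g • x) (g • y) = dist x y)
    {δ : ℝ} (hyp : IsHyp X δ) (μ : ℝ)
    (hmid : ∀ a b : X, ∃ m, dist a m ≤ dist a b / 2 + μ ∧ dist m b ≤ dist a b / 2 + μ)
    (hproper : ∀ (o : X) (R : ℝ), {g : G | dist (g • o) o ≤ R}.Finite)
    (o : X) (R₀ : ℝ) (hcob : ∀ y : X, ∃ g : G, dist (g • o) y ≤ R₀) :
    {C : ConjClasses G | ∃ x ∈ C.carrier, IsOfFinOrder x}.Finite := by
  refine ((hproper o (2 + 2 * μ + 4 * δ + 2 * R₀)).image ConjClasses.mk).subset ?_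
  rintro C ⟨x, hxC, hx⟩
  obtain ⟨q, hq⟩ := exists_small_displacement_of_finOrder hiso hyp μ hmid x hx o
  obtain ⟨h, hh⟩ := hcob q
  refine ⟨h⁻¹ * x * h, ?_, ?_⟩
  · show dist ((h⁻¹ * x * h) • o) o ≤ 2 + 2 * μ + 4 * δ + 2 * R₀
    have e1 : dist ((h⁻¹ * x * h) • o) o = dist (x • h • o) (h • o) := by
      rw [← hiso h ((h⁻¹ * x * h) • o) o]
      congr 1
      rw [← mul_smul, ← mul_smul]
      congr 1
      group
    have e2 : dist (x • h • o) (x • q) = dist (h • o) q := hiso x _ _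
    have e3 := dist_triangle (x • h • o) (x • q) (h • o)
    have e4 := dist_triangle (x • q) q (h • o)
    have e5 := dist_comm q (h • o)
    have e6 := dist_comm q (x • q)
    rw [e1]
    linarith
  · have hC : ConjClasses.mk x = C := ConjClasses.mem_carrier_iff_mk_eq.mp hxC
    rw [← hC]
    apply ConjClasses.mk_eq_mk_iff_isConj.mpr
    rw [isConj_iff]
    exact ⟨h, by group⟩

theorem escape_of_not_finOrder_hyp (hiso : ∀ (g : G) (x y : X), dist (g • x) (g • y) = dist x y)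
    {δ : ℝ} (hyp : IsHyp X δ) (μ : ℝ)
    (hmid : ∀ a b : X, ∃ m, dist a m ≤ dist a b / 2 + μ ∧ dist m b ≤ dist a b / 2 + μ)
    (hproper : ∀ (o : X) (R : ℝ), {g : G | dist (g • o) o ≤ R}.Finite)
    (o : X) (R₀ : ℝ) (hcob : ∀ y : X, ∃ g : G, dist (g • o) y ≤ R₀) (g : G) (hg : ¬ IsOfFinOrder g) :
    ∃ c : ℝ, 0 < c ∧ ∀ n : ℕ, c * n ≤ dist o (g ^ n • o) := by
  have hunif := uniform_proper hiso hproper o R₀ hcob
  obtain ⟨N, hN, hd⟩ := exists_doubling_of_not_finOrder hiso hyp μ hmid hunif g hg o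
  obtain ⟨c₁, c₂, hc₁, hlin⟩ := linear_growth_of_doubling hiso hyp g o N hN hd
  refine exists_linear_of_affine (fun n => dist o (g ^ n • o)) c₁ c₂ hc₁ hlin ?_ dist_nonneg
  intro n hn
  rcases (dist_nonneg (x := o) (y := g ^ n • o)).lt_or_eq with h | h
  · exact h
  · exfalso
    have hz : ∀ k : ℕ, dist o (g ^ (n * k) • o) = 0 := by
      intro k
      induction k with
      | zero => simp
      | succ k ih =>
        have h1 := dist_triangle o (g ^ n • o) (g ^ (n * (k + 1)) • o)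
        have h2 : g ^ (n * (k + 1)) • o = g ^ n • g ^ (n * k) • o := by
          rw [← mul_smul, ← pow_add]
          congr 2
          ring
        rw [h2, hiso, ih, ← h] at h1
        rw [h2]
        exact le_antisymm (by linarith) dist_nonneg
    obtain ⟨k, hk⟩ := exists_nat_gt (c₂ / c₁)
    have h3 := hlin (n * k)
    rw [hz k] at h3
    rw [div_lt_iff₀ hc₁] at hk
    have hn1 : (1 : ℝ) ≤ n := by exact_mod_cast hn
    have hk0 : (0 : ℝ) ≤ k := Nat.cast_nonneg k
    push_cast at h3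
    have h4 : c₁ * (k : ℝ) ≤ c₁ * ((n : ℝ) * k) := by
      apply mul_le_mul_of_nonneg_left _ hc₁.le
      nlinarith
    linarith

theorem q1_of_geometric_hyp {q : ℕ} (e : Matrix (Fin q) (Fin q) (G → ℂ))
    (hsum : ∀ i j, Summable fun g => ‖e i j g‖)
    (hidem : ∀ i j g, ∑ k, ∑' h, e i k h * e k j (h⁻¹ * g) = e i j g)
    (hiso : ∀ (g : G) (x y : X), dist (g • x) (g • y) = dist x y)
    {δ : ℝ} (hyp : IsHyp X δ) (μ : ℝ)
    (hmid : ∀ a b : X, ∃ m, dist a m ≤ dist a b / 2 + μ ∧ dist m b ≤ dist a b / 2 + μ)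
    (hproper : ∀ (o : X) (R : ℝ), {g : G | dist (g • o) o ≤ R}.Finite)
    (o : X) (R₀ : ℝ) (hcob : ∀ y : X, ∃ g : G, dist (g • o) y ≤ R₀) :
    ∃ F : Finset (ConjClasses G), (∀ C ∈ F, ∀ x ∈ C.carrier, IsOfFinOrder x) ∧
      ∀ C ∉ F, ∑' x : C.carrier, ∑ i, e i i x = 0 := by
  have hfin := finite_finOrder_classes_hyp hiso hyp μ hmid hproper o R₀ hcob
  refine ⟨hfin.toFinset, ?_, ?_⟩
  · intro C hC x hx
    rw [Set.Finite.mem_toFinset] at hC
    obtain ⟨x', hx', hfo⟩ := hC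
    rw [ConjClasses.mem_carrier_iff_mk_eq] at hx hx'
    have hconj : IsConj x' x := by
      rw [← ConjClasses.mk_eq_mk_iff_isConj, hx, hx']
    obtain ⟨w, hw⟩ := isConj_iff.1 hconj
    rw [← hw]
    obtain ⟨n, hn, hpow⟩ := isOfFinOrder_iff_pow_eq_one.1 hfo
    exact isOfFinOrder_iff_pow_eq_one.2 ⟨n, hn, by rw [conj_pow, hpow]; group⟩
  · intro C hC
    rw [Set.Finite.mem_toFinset] at hC
    obtain ⟨g, rfl⟩ := ConjClasses.exists_rep C
    have hg : ¬ IsOfFinOrder g := fun h => hC ⟨g, ConjClasses.mem_carrier_mk, h⟩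
    obtain ⟨c, hc0, hc⟩ := escape_of_not_finOrder_hyp hiso hyp μ hmid hproper o R₀ hcob g hg
    refine trace_vanish_of_wpd e hsum hidem hiso hyp g o c hc0 hc ?_
    intro R
    refine ⟨0, (hproper o R).subset ?_⟩
    rintro h ⟨h1, -⟩
    show dist (h • o) o ≤ R
    rw [dist_comm]
    exact h1

end Vale.Agent.Lib.P184.Hyp
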